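import Vale.Agent.P197.Main

open Vale.Agent.P197 CategoryTheory MonoidalCategory

theorem Vale.Agent.Results.P197.Saxl.result (m N : ℕ) (_hm : 1 ≤ m) (hN : N = m * (m + 1) / 2) :
    (∀ ν : YoungDiagram, ν.card = N → 0 < kronecker N (staircase m) (staircase m) ν) ∧
    (∀ X : Rep ℂ (Equiv.Perm (Fin N)), X.ρ.IsIrreducible →
      ∃ f : X ⟶ spechtRep N (staircase m) ⊗ spechtRep N (staircase m), Mono f) := by
  subst hN
  exact ⟨saxl m, fun X hX => (saxl_irreducible m X hX).imp fun f hf =>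
    (Rep.mono_iff_injective f).2 hf⟩
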